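import Vale.Agent.Lib.P038.Sat.I.M2_5.S0
import Vale.Agent.Lib.P038.Sat.I.M2_5.S1
noncomputable section
namespace Vale.Agent.Lib.P038.Sat.I.M2_5
open Vale.Agent.Lib.P038.Sat
theorem unsat (K : Conf) (hK : Good sh_6_5_t (flM 2) K) : False := by
  have hg := gen_sound (chkParts sh_6_5_t_chk) hK
  have h0 : ∀ g, g < 0 → HL W (loc GT (Val sh_6_5_t K)) (getB H g) := fun g h => absurd h (Nat.not_lt_zero g)
  have h1 := seg_chain (P := fun g => HL W (loc GT (Val sh_6_5_t K)) (getB H g)) h0 (S0.seg hg)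
  have h2 := seg_chain (P := fun g => HL W (loc GT (Val sh_6_5_t K)) (getB H g)) h1 (S1.seg hg)
  have hz := h2 444 (by decide)
  rw [hlast] at hz
  exact HL_zero _ _ hz
end Vale.Agent.Lib.P038.Sat.I.M2_5
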